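import Mathlib
import Vale.Agent.P037.Defs
import Vale.Agent.P037.Sym
import Vale.Agent.P037.All2
import Vale.Agent.P037.BlowMain
import Vale.Agent.P037.AltXor
import Vale.Agent.P037.FewRows
import Vale.Agent.P037.ESym
import Vale.Agent.P037.TVDefs
import Vale.Agent.P037.TVAll
import Vale.Agent.P037.TVRobust
import Vale.Agent.P037.Syn37.Defs
import Vale.Agent.P037.Syn37.Main
import Vale.Agent.P037.Spr37.Defs
import Vale.Agent.P037.Spr37.Main

namespace Vale.Agent.Results.P037.A0000000_CombinedSpread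

open Vale.Agent.P037

/-- the polynomial removal bound of the conjecture for the `k x k` pattern `H`: if every `H`-free
matrix differs from `A` in at least `ε n^2` entries, then `A` has at least `c ε^C n^(2k)` ordered
copies of `H`. -/
def PolyBound {k : ℕ} (H : Fin k → Fin k → Bool) : Prop :=
  ∃ c : ℝ, ∃ C : ℕ, 0 < c ∧ 0 < C ∧
    ∀ (n : ℕ) (ε : ℝ) (A : Fin n → Fin n → Bool), 0 < ε → ε < 1 →
      (∀ B : Fin n → Fin n → Bool, HFree H B → ε * (n : ℝ) ^ 2 ≤ (diffCount A B : ℝ)) →
      c * ε ^ C * (n : ℝ) ^ (2 * k) ≤ (copyCount H A : ℝ)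

/-- (0) EVERY pattern `H` (every `k ≥ 1`), hosts of bounded type: if `A` has at most `r` distinct rows, or at
most `r` distinct columns, and every `H`-free matrix differs from `A` in at least `ε n^2` entries, then
`A` has at least `(ε / (4 k r^k))^(2k) n^(2k)` ordered copies of `H` (polynomial in `ε` and in `r`).
(1) The polynomial removal bound passes from a pattern `H0` to every blow-up
`H i j = H0 (ρ i) (κ j)` (rows and columns repeated, `ρ`, `κ` monotone and onto).
(2) It holds for every `2 x 2` pattern.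
(3) It holds, for every `k0`, for every pattern `u i xor v j` with `u` arbitrary and `v` monotone
or antitone, and for its transpose.
(4), (5) Hence it holds for all blow-ups of the patterns in (2) and (3).
(6) It holds for all blow-ups of the `3 x 2` patterns that are constant except for one entry of the
middle row (rows 11,10,11; 11,01,11; 00,01,00; 00,10,00), and for their transposes.
(7) EVERY pattern `H` (every `k ≥ 1`), hosts close to bounded variation: there are `K`, `a` (depending only on `H`) such that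
for all integers `T, V ≥ 1`: if every `H`-free matrix differs from `A` in at least `n^2 / T` entries, and `A` differs in at most
`n^2 / (16 T)` entries from some matrix `A0` in which at most `V n` pairs of vertically adjacent entries differ (`rowVar A0 ≤ V n`),
then `K (T V)^a N_H(A) ≥ n^(2k)` (polynomial in `1/T` and in `V`; `A0 = A` is allowed).
The same for horizontally adjacent entries.
(8) EVERY pattern `H` (every `k ≥ 1`), hosts that are interleavings of slowly varying classes that are well spread at SOME scale `g`: there are `K`, `a` (depending only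
on `H`) such that for all integers `T, V, M, g, q ≥ 1` with `g ≤ M q` and every colouring `τ` of the rows in which every colour that occurs occurs at least `q` times among any `g` consecutive rows
(`Spread τ g q`): if `A x c ≠ A x' c` for at most `V n` triples `(x, x', c)` with `x'` the next row after `x` of the same colour (`classVar τ A ≤ V n`), every `H`-free
matrix differs from `A` in at least `n^2 / T` entries, and `K (T V M)^a g ≤ n`, then `K (T V M)^a N_H(A) ≥ n^(2k)` (the bound does not depend on the scale `g`).  The same with rows and columns exchanged. -/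
theorem result :
    (∀ (k n r : ℕ) (H : Fin k → Fin k → Bool) (A : Fin n → Fin n → Bool) (ε : ℝ),
      0 < k → 0 < ε →
      ((Finset.univ.image A).card ≤ r ∨
        (Finset.univ.image (fun c : Fin n => fun x : Fin n => A x c)).card ≤ r) →
      (∀ B : Fin n → Fin n → Bool, HFree H B → ε * (n : ℝ) ^ 2 ≤ (diffCount A B : ℝ)) →
      (ε / (4 * (k : ℝ) * (r : ℝ) ^ k)) ^ (2 * k) * (n : ℝ) ^ (2 * k) ≤ (copyCount H A : ℝ)) ∧
    (∀ (k0 k : ℕ) (H0 : Fin k0 → Fin k0 → Bool) (ρ κ : Fin k → Fin k0),
      Monotone ρ → Monotone κ → Function.Surjective ρ → Function.Surjective κ →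
      PolyBound H0 → PolyBound (fun i j => H0 (ρ i) (κ j))) ∧
    (∀ H0 : Fin 2 → Fin 2 → Bool, PolyBound H0) ∧
    (∀ (k0 : ℕ) (u v : Fin k0 → Bool), (Monotone v ∨ Antitone v) →
      PolyBound (fun i j => xor (u i) (v j)) ∧ PolyBound (fun i j => xor (u j) (v i))) ∧
    (∀ (k : ℕ) (H0 : Fin 2 → Fin 2 → Bool) (ρ κ : Fin k → Fin 2),
      Monotone ρ → Monotone κ → Function.Surjective ρ → Function.Surjective κ →
      PolyBound (fun i j => H0 (ρ i) (κ j))) ∧
    (∀ (k0 k : ℕ) (u v : Fin k0 → Bool) (ρ κ : Fin k → Fin k0), (Monotone v ∨ Antitone v) →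
      Monotone ρ → Monotone κ → Function.Surjective ρ → Function.Surjective κ →
      PolyBound (fun i j => xor (u (ρ i)) (v (κ j))) ∧
      PolyBound (fun i j => xor (u (κ j)) (v (ρ i)))) ∧
    (∀ (k : ℕ) (ρ : Fin k → Fin 3) (κ : Fin k → Fin 2) (b c : Bool),
      Monotone ρ → Monotone κ → Function.Surjective ρ → Function.Surjective κ →
      PolyBound (fun i j => xor b (decide (ρ i = 1) && decide (κ j = if c then 1 else 0))) ∧
      PolyBound (fun i j => xor b (decide (ρ j = 1) && decide (κ i = if c then 1 else 0)))) ∧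
    (∀ (k : ℕ) (H : Fin k → Fin k → Bool), 0 < k →
      (∃ K a : ℕ, ∀ (T V n : ℕ) (A A0 : Fin n → Fin n → Bool), 1 ≤ T → 1 ≤ V →
        rowVar A0 ≤ V * n → 16 * T * diffCount A A0 ≤ n ^ 2 →
        (∀ B : Fin n → Fin n → Bool, HFree H B → n ^ 2 ≤ T * diffCount A B) →
        n ^ (2 * k) ≤ K * (T * V) ^ a * copyCount H A) ∧
      (∃ K a : ℕ, ∀ (T V n : ℕ) (A A0 : Fin n → Fin n → Bool), 1 ≤ T → 1 ≤ V →
        rowVar (fun x c => A0 c x) ≤ V * n → 16 * T * diffCount A A0 ≤ n ^ 2 →
        (∀ B : Fin n → Fin n → Bool, HFree H B → n ^ 2 ≤ T * diffCount A B) →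
        n ^ (2 * k) ≤ K * (T * V) ^ a * copyCount H A)) ∧
    (∀ (k : ℕ) (H : Fin k → Fin k → Bool), 0 < k →
      (∃ K a : ℕ, ∀ (T V M g q n : ℕ) (τ : Fin n → ℕ) (A : Fin n → Fin n → Bool),
        1 ≤ T → 1 ≤ V → 1 ≤ M → 1 ≤ g → 1 ≤ q → g ≤ M * q → Spread τ g q → classVar τ A ≤ V * n →
        (∀ B : Fin n → Fin n → Bool, HFree H B → n ^ 2 ≤ T * diffCount A B) →
        K * (T * V * M) ^ a * g ≤ n →
        n ^ (2 * k) ≤ K * (T * V * M) ^ a * copyCount H A) ∧
      (∃ K a : ℕ, ∀ (T V M g q n : ℕ) (τ : Fin n → ℕ) (A : Fin n → Fin n → Bool),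
        1 ≤ T → 1 ≤ V → 1 ≤ M → 1 ≤ g → 1 ≤ q → g ≤ M * q → Spread τ g q →
        classVar τ (fun x c => A c x) ≤ V * n →
        (∀ B : Fin n → Fin n → Bool, HFree H B → n ^ 2 ≤ T * diffCount A B) →
        K * (T * V * M) ^ a * g ≤ n →
        n ^ (2 * k) ≤ K * (T * V * M) ^ a * copyCount H A)) := by
  refine ⟨?_, ?_, ?_, ?_, ?_, ?_, ?_, ?_, ?_⟩
  · intro k n r H A ε hk hε hr hfar
    rcases hr with hr | hr
    · exact FR.few_rows H A r ε hk hε hr hfar
    · exact FR.few_cols H A r ε hk hε hr hfar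
  · intro k0 k H0 ρ κ hρ hκ hρs hκs h0
    exact polyRemoval_blow H0 h0 ρ κ hρ hρs hκ hκs
  · intro H0
    exact polyRemoval_all2 H0
  · intro k0 u v hv
    have h := polyRemoval_xor_all u v hv
    exact ⟨h, polyRemoval_transpose _ h⟩
  · intro k H0 ρ κ hρ hκ hρs hκs
    exact polyRemoval_blow H0 (polyRemoval_all2 H0) ρ κ hρ hρs hκ hκs
  · intro k0 k u v ρ κ hv hρ hκ hρs hκs
    have h := polyRemoval_xor_all u v hv
    exact ⟨polyRemoval_blow _ h ρ κ hρ hρs hκ hκs,
      polyRemoval_blow _ (polyRemoval_transpose _ h) ρ κ hρ hρs hκ hκs⟩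
  · intro k ρ κ b c hρ hκ hρs hκs
    have h := polyRemoval_eAll ρ κ b c hρ hρs hκ hκs
    exact ⟨h, polyRemoval_transpose _ h⟩
  · intro k H hk
    exact ⟨TVB.tv_robust_nat H hk, TVB.tv_robust_nat_cols H hk⟩
  · intro k H hk
    exact ⟨Spr37.spr_nat H hk, Spr37.spr_nat_cols H hk⟩

end Vale.Agent.Results.P037.A0000000_CombinedSpread
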