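import Mathlib
import Vale.Agent.P037.Defs
import Vale.Agent.P037.Sym
import Vale.Agent.P037.All2
import Vale.Agent.P037.BlowMain
import Vale.Agent.P037.AltXor
import Vale.Agent.P037.FewRows
import Vale.Agent.P037.ESym
import Vale.Agent.P037.TVDefs
import Vale.Agent.P037.TVAll
import Vale.Agent.P037.TVRobust

namespace Vale.Agent.Results.P037.A00000_CombinedRobust

open Vale.Agent.P037

/-- the polynomial removal bound of the conjecture for the `k x k` pattern `H`: if every `H`-free
matrix differs from `A` in at least `ε n^2` entries, then `A` has at least `c ε^C n^(2k)` ordered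
copies of `H`. -/
def PolyBound {k : ℕ} (H : Fin k → Fin k → Bool) : Prop :=
  ∃ c : ℝ, ∃ C : ℕ, 0 < c ∧ 0 < C ∧
    ∀ (n : ℕ) (ε : ℝ) (A : Fin n → Fin n → Bool), 0 < ε → ε < 1 →
      (∀ B : Fin n → Fin n → Bool, HFree H B → ε * (n : ℝ) ^ 2 ≤ (diffCount A B : ℝ)) →
      c * ε ^ C * (n : ℝ) ^ (2 * k) ≤ (copyCount H A : ℝ)

/-- (0) EVERY pattern `H` (every `k ≥ 1`), hosts of bounded type: if `A` has at most `r` distinct rows, or at
most `r` distinct columns, and every `H`-free matrix differs from `A` in at least `ε n^2` entries, then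
`A` has at least `(ε / (4 k r^k))^(2k) n^(2k)` ordered copies of `H` (polynomial in `ε` and in `r`).
(1) The polynomial removal bound passes from a pattern `H0` to every blow-up
`H i j = H0 (ρ i) (κ j)` (rows and columns repeated, `ρ`, `κ` monotone and onto).
(2) It holds for every `2 x 2` pattern.
(3) It holds, for every `k0`, for every pattern `u i xor v j` with `u` arbitrary and `v` monotone
or antitone, and for its transpose.
(4), (5) Hence it holds for all blow-ups of the patterns in (2) and (3).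
(6) It holds for all blow-ups of the `3 x 2` patterns that are constant except for one entry of the
middle row (rows 11,10,11; 11,01,11; 00,01,00; 00,10,00), and for their transposes.
(7) EVERY pattern `H` (every `k ≥ 1`), hosts close to bounded variation: there are `K`, `a` (depending only on `H`) such that
for all integers `T, V ≥ 1`: if every `H`-free matrix differs from `A` in at least `n^2 / T` entries, and `A` differs in at most
`n^2 / (16 T)` entries from some matrix `A0` in which at most `V n` pairs of vertically adjacent entries differ (`rowVar A0 ≤ V n`),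
then `K (T V)^a N_H(A) ≥ n^(2k)` (polynomial in `1/T` and in `V`; `A0 = A` is allowed).
The same for horizontally adjacent entries. -/
theorem result :
    (∀ (k n r : ℕ) (H : Fin k → Fin k → Bool) (A : Fin n → Fin n → Bool) (ε : ℝ),
      0 < k → 0 < ε →
      ((Finset.univ.image A).card ≤ r ∨
        (Finset.univ.image (fun c : Fin n => fun x : Fin n => A x c)).card ≤ r) →
      (∀ B : Fin n → Fin n → Bool, HFree H B → ε * (n : ℝ) ^ 2 ≤ (diffCount A B : ℝ)) →
      (ε / (4 * (k : ℝ) * (r : ℝ) ^ k)) ^ (2 * k) * (n : ℝ) ^ (2 * k) ≤ (copyCount H A : ℝ)) ∧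
    (∀ (k0 k : ℕ) (H0 : Fin k0 → Fin k0 → Bool) (ρ κ : Fin k → Fin k0),
      Monotone ρ → Monotone κ → Function.Surjective ρ → Function.Surjective κ →
      PolyBound H0 → PolyBound (fun i j => H0 (ρ i) (κ j))) ∧
    (∀ H0 : Fin 2 → Fin 2 → Bool, PolyBound H0) ∧
    (∀ (k0 : ℕ) (u v : Fin k0 → Bool), (Monotone v ∨ Antitone v) →
      PolyBound (fun i j => xor (u i) (v j)) ∧ PolyBound (fun i j => xor (u j) (v i))) ∧
    (∀ (k : ℕ) (H0 : Fin 2 → Fin 2 → Bool) (ρ κ : Fin k → Fin 2),
      Monotone ρ → Monotone κ → Function.Surjective ρ → Function.Surjective κ →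
      PolyBound (fun i j => H0 (ρ i) (κ j))) ∧
    (∀ (k0 k : ℕ) (u v : Fin k0 → Bool) (ρ κ : Fin k → Fin k0), (Monotone v ∨ Antitone v) →
      Monotone ρ → Monotone κ → Function.Surjective ρ → Function.Surjective κ →
      PolyBound (fun i j => xor (u (ρ i)) (v (κ j))) ∧
      PolyBound (fun i j => xor (u (κ j)) (v (ρ i)))) ∧
    (∀ (k : ℕ) (ρ : Fin k → Fin 3) (κ : Fin k → Fin 2) (b c : Bool),
      Monotone ρ → Monotone κ → Function.Surjective ρ → Function.Surjective κ →
      PolyBound (fun i j => xor b (decide (ρ i = 1) && decide (κ j = if c then 1 else 0))) ∧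
      PolyBound (fun i j => xor b (decide (ρ j = 1) && decide (κ i = if c then 1 else 0)))) ∧
    (∀ (k : ℕ) (H : Fin k → Fin k → Bool), 0 < k →
      (∃ K a : ℕ, ∀ (T V n : ℕ) (A A0 : Fin n → Fin n → Bool), 1 ≤ T → 1 ≤ V →
        rowVar A0 ≤ V * n → 16 * T * diffCount A A0 ≤ n ^ 2 →
        (∀ B : Fin n → Fin n → Bool, HFree H B → n ^ 2 ≤ T * diffCount A B) →
        n ^ (2 * k) ≤ K * (T * V) ^ a * copyCount H A) ∧
      (∃ K a : ℕ, ∀ (T V n : ℕ) (A A0 : Fin n → Fin n → Bool), 1 ≤ T → 1 ≤ V →
        rowVar (fun x c => A0 c x) ≤ V * n → 16 * T * diffCount A A0 ≤ n ^ 2 →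
        (∀ B : Fin n → Fin n → Bool, HFree H B → n ^ 2 ≤ T * diffCount A B) →
        n ^ (2 * k) ≤ K * (T * V) ^ a * copyCount H A)) := by
  refine ⟨?_, ?_, ?_, ?_, ?_, ?_, ?_, ?_⟩
  · intro k n r H A ε hk hε hr hfar
    rcases hr with hr | hr
    · exact FR.few_rows H A r ε hk hε hr hfar
    · exact FR.few_cols H A r ε hk hε hr hfar
  · intro k0 k H0 ρ κ hρ hκ hρs hκs h0
    exact polyRemoval_blow H0 h0 ρ κ hρ hρs hκ hκs
  · intro H0
    exact polyRemoval_all2 H0
  · intro k0 u v hv
    have h := polyRemoval_xor_all u v hv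
    exact ⟨h, polyRemoval_transpose _ h⟩
  · intro k H0 ρ κ hρ hκ hρs hκs
    exact polyRemoval_blow H0 (polyRemoval_all2 H0) ρ κ hρ hρs hκ hκs
  · intro k0 k u v ρ κ hv hρ hκ hρs hκs
    have h := polyRemoval_xor_all u v hv
    exact ⟨polyRemoval_blow _ h ρ κ hρ hρs hκ hκs,
      polyRemoval_blow _ (polyRemoval_transpose _ h) ρ κ hρ hρs hκ hκs⟩
  · intro k ρ κ b c hρ hκ hρs hκs
    have h := polyRemoval_eAll ρ κ b c hρ hρs hκ hκs
    exact ⟨h, polyRemoval_transpose _ h⟩
  · intro k H hk
    exact ⟨TVB.tv_robust_nat H hk, TVB.tv_robust_nat_cols H hk⟩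

end Vale.Agent.Results.P037.A00000_CombinedRobust
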