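import Mathlib
import Vale.Agent.P037.Defs
import Vale.Agent.P037.All2

namespace Vale.Agent.Results.P037.A0_All2x2

open Vale.Agent.P037

/-- Polynomial removal for every `2 x 2` binary pattern `H`: if every `H`-free matrix differs from
`A` in at least `ε n^2` entries, then `A` has at least `c ε^C n^4` ordered copies of `H`. -/
theorem result :
    ∀ H : Fin 2 → Fin 2 → Bool,
      ∃ c : ℝ, ∃ C : ℕ, 0 < c ∧ 0 < C ∧
        ∀ (n : ℕ) (ε : ℝ) (A : Fin n → Fin n → Bool), 0 < ε → ε < 1 →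
          (∀ B : Fin n → Fin n → Bool, HFree H B → ε * (n : ℝ) ^ 2 ≤ (diffCount A B : ℝ)) →
          c * ε ^ C * (n : ℝ) ^ 4 ≤ (copyCount H A : ℝ) := by
  intro H
  obtain ⟨c, C, hc, hC, h⟩ := polyRemoval_all2 H
  exact ⟨c, C, hc, hC, fun n ε A h0 h1 hfar => by simpa using h n ε A h0 h1 hfar⟩

end Vale.Agent.Results.P037.A0_All2x2
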