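import Mathlib
import Vale.Agent.P037.Defs
import Vale.Agent.P037.All2
import Vale.Agent.P037.BlowMain

namespace Vale.Agent.Results.P037.A1_BlockPatterns

open Vale.Agent.P037

/-- the polynomial removal bound of the conjecture for the `k x k` pattern `H`: if every `H`-free
matrix differs from `A` in at least `ε n^2` entries, then `A` has at least `c ε^C n^(2k)` ordered
copies of `H`. -/
def PolyBound {k : ℕ} (H : Fin k → Fin k → Bool) : Prop :=
  ∃ c : ℝ, ∃ C : ℕ, 0 < c ∧ 0 < C ∧
    ∀ (n : ℕ) (ε : ℝ) (A : Fin n → Fin n → Bool), 0 < ε → ε < 1 →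
      (∀ B : Fin n → Fin n → Bool, HFree H B → ε * (n : ℝ) ^ 2 ≤ (diffCount A B : ℝ)) →
      c * ε ^ C * (n : ℝ) ^ (2 * k) ≤ (copyCount H A : ℝ)

/-- (1) The polynomial removal bound passes from a pattern `H0` to every blow-up
`H i j = H0 (ρ i) (κ j)` (rows and columns repeated, `ρ`, `κ` monotone and onto).
(2) It holds for every blow-up of every `2 x 2` pattern, that is for all patterns made of
`2 x 2` constant blocks, of every size `k`. -/
theorem result :
    (∀ (k0 k : ℕ) (H0 : Fin k0 → Fin k0 → Bool) (ρ κ : Fin k → Fin k0),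
      Monotone ρ → Monotone κ → Function.Surjective ρ → Function.Surjective κ →
      PolyBound H0 → PolyBound (fun i j => H0 (ρ i) (κ j))) ∧
    (∀ (k : ℕ) (H0 : Fin 2 → Fin 2 → Bool) (ρ κ : Fin k → Fin 2),
      Monotone ρ → Monotone κ → Function.Surjective ρ → Function.Surjective κ →
      PolyBound (fun i j => H0 (ρ i) (κ j))) := by
  constructor
  · intro k0 k H0 ρ κ hρ hκ hρs hκs h0
    exact polyRemoval_blow H0 h0 ρ κ hρ hρs hκ hκs
  · intro k H0 ρ κ hρ hκ hρs hκs
    exact polyRemoval_blow H0 (polyRemoval_all2 H0) ρ κ hρ hρs hκ hκs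

end Vale.Agent.Results.P037.A1_BlockPatterns
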