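import Mathlib
import Vale.Agent.P037.Defs
import Vale.Agent.P037.Sym
import Vale.Agent.P037.AltXor

namespace Vale.Agent.Results.P037.A2_XorPatterns

open Vale.Agent.P037

/-- the polynomial removal bound of the conjecture for the `k x k` pattern `H`: if every `H`-free
matrix differs from `A` in at least `ε n^2` entries, then `A` has at least `c ε^C n^(2k)` ordered
copies of `H`. -/
def PolyBound {k : ℕ} (H : Fin k → Fin k → Bool) : Prop :=
  ∃ c : ℝ, ∃ C : ℕ, 0 < c ∧ 0 < C ∧
    ∀ (n : ℕ) (ε : ℝ) (A : Fin n → Fin n → Bool), 0 < ε → ε < 1 →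
      (∀ B : Fin n → Fin n → Bool, HFree H B → ε * (n : ℝ) ^ 2 ≤ (diffCount A B : ℝ)) →
      c * ε ^ C * (n : ℝ) ^ (2 * k) ≤ (copyCount H A : ℝ)

/-- For every `k`, every vector `u` and every monotone or antitone vector `v` (a step vector
`0..01..1` or `1..10..0`, or a constant vector), the pattern `H i j = u i xor v j` and its
transpose satisfy the polynomial removal bound. -/
theorem result :
    ∀ (k : ℕ) (u v : Fin k → Bool), (Monotone v ∨ Antitone v) →
      PolyBound (fun i j => xor (u i) (v j)) ∧ PolyBound (fun i j => xor (u j) (v i)) := by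
  intro k u v hv
  have h := polyRemoval_xor_all u v hv
  exact ⟨h, polyRemoval_transpose _ h⟩

end Vale.Agent.Results.P037.A2_XorPatterns
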