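import Mathlib
import Vale.Agent.P037.Defs
import Vale.Agent.P037.Main

namespace Vale.Agent.Results.P037.B1_PermPatterns2

open Vale.Agent.P037

/-- Polynomial removal for the two `2 x 2` permutation patterns `[[1,0],[0,1]]` and
`[[0,1],[1,0]]`: if every `H`-free matrix differs from `A` in at least `ε n^2` entries, then `A`
has at least `c ε^C n^4` ordered copies of `H`. -/
theorem result :
    ∀ H : Fin 2 → Fin 2 → Bool, (H = patI ∨ H = patJ) →
      ∃ c : ℝ, ∃ C : ℕ, 0 < c ∧ 0 < C ∧
        ∀ (n : ℕ) (ε : ℝ) (A : Fin n → Fin n → Bool), 0 < ε → ε < 1 →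
          (∀ B : Fin n → Fin n → Bool, HFree H B → ε * (n : ℝ) ^ 2 ≤ (diffCount A B : ℝ)) →
          c * ε ^ C * (n : ℝ) ^ 4 ≤ (copyCount H A : ℝ) := by
  intro H hH
  rcases hH with rfl | rfl
  · exact removal_patI
  · exact removal_patJ

end Vale.Agent.Results.P037.B1_PermPatterns2
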